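import Vale.Agent.P032.Words.H151.Pal4

/-!
# The check of a box table, one piece per first palette
-/

namespace Vale.Agent.P032.Words.Trie

/-- everything which has to be checked, except the palette tuples -/
noncomputable def chkQ0 (D : Dat) (J Rm : List (List ℕ)) (nl : ℕ) (T : Tr) : Bool :=
  cond (symM D.A D.nb) (cond (symM D.N D.nbT) (cond (D.tie.all fun m => Nat.blt m (2 ^ D.r))
  (cond (covL (List.range D.A) (upG D.nb D.op) (fun v => Nat.blt v nl) 6 [2 ^ 40 - 1, 2 ^ 40 - 1,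
    2 ^ 40 - 1, 2 ^ 40 - 1, 2 ^ 40 - 1, 2 ^ 40 - 1] T)
  (cond (allC (fun a s => rwR Rm D.r a 5 s T) T)
  (chR J Rm D.r nl) false) false) false) false) false

/-- the palette tuples with first palette `p` -/
noncomputable def csP (D : Dat) (J : List (List ℕ)) (T : Tr) (p : ℕ) : Bool :=
  cond (isNil2 (kids2 (flt D) [] p (D.PL.getD p []) [(T, [])])) true
    (fL (upG D.nbT D.opT p [2 ^ 40 - 1, 2 ^ 40 - 1, 2 ^ 40 - 1, 2 ^ 40 - 1, 2 ^ 40 - 1]) fun ms' =>
      cs2 (List.range D.N) D.PL (upG D.nbT D.opT) (flt D) (finB D J) 5 ms' [p]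
        (kids2 (flt D) [] p (D.PL.getD p []) [(T, [])]))

theorem allR_of {f : ℕ → Bool} {m : ℕ} : ∀ {l : List ℕ}, (∀ a ∈ l, f a = true) →
    allR l f m = true
  | [], _ => rfl
  | b :: l, h => by
    show cond (bt m b) (cond (f b) (allR l f m) false) (allR l f m) = true
    rw [h b List.mem_cons_self, cond_true, allR_of (l := l) fun a ha => h a (List.mem_cons_of_mem _ ha)]
    cases bt m b <;> rfl

theorem chkQ_of {D : Dat} {J Rm : List (List ℕ)} {nl : ℕ} {T : Tr}
    (h0 : chkQ0 D J Rm nl T = true) (h : ∀ p < D.N, csP D J T p = true) :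
    chkQ D J Rm nl T = true := by
  unfold chkQ0 at h0
  obtain ⟨e1, h0⟩ := cond_tt h0
  obtain ⟨e2, h0⟩ := cond_tt h0
  obtain ⟨e3, h0⟩ := cond_tt h0
  obtain ⟨e4, h0⟩ := cond_tt h0
  obtain ⟨e5, e6⟩ := cond_tt h0
  unfold chkQ
  rw [e1, e2, e3, e4, e5, e6, cond_true, cond_true, cond_true, cond_true, cond_true, cond_true]
  exact allR_of (l := List.range D.N) fun p hp => h p (List.mem_range.1 hp)

theorem boxTab_of {D : Dat} {J Rm : List (List ℕ)} {nl : ℕ} {T : Tr} (hA : D.A ≤ 40)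
    (hN : D.N ≤ 40) (h0 : chkQ0 D J Rm nl T = true) (h : ∀ p < D.N, csP D J T p = true) : BoxTab D :=
  boxTab_of_chkQ hA hN (chkQ_of h0 h)

end Vale.Agent.P032.Words.Trie
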